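import Mathlib

namespace Vale.Agent.P121

open MeasureTheory
open scoped ENNReal

/-- Euclidean three-space. -/
abbrev E3 : Type := EuclideanSpace ℝ (Fin 3)

/-- The three-particle Coulomb cost, equal to `+∞` when two coordinates coincide. -/
noncomputable def coulomb (x₁ x₂ x₃ : E3) : ℝ≥0∞ :=
  (edist x₁ x₂)⁻¹ + (edist x₁ x₃)⁻¹ + (edist x₂ x₃)⁻¹

/-- Borel probability measures on `(ℝ³)³` whose three marginals all equal `μ`. -/
def IsCoupling (μ : Measure E3) (π : Measure (E3 × E3 × E3)) : Prop :=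
  IsProbabilityMeasure π ∧ π.map (fun p => p.1) = μ ∧ π.map (fun p => p.2.1) = μ ∧
    π.map (fun p => p.2.2) = μ

/-- The Kantorovich value. -/
noncomputable def kantorovichValue (μ : Measure E3) : ℝ≥0∞ :=
  ⨅ π ∈ {π : Measure (E3 × E3 × E3) | IsCoupling μ π}, ∫⁻ p, coulomb p.1 p.2.1 p.2.2 ∂π

/-- `(Id, T₂, T₃)` induces an optimal Monge plan for `μ`. -/
def IsOptimalMongePair (μ : Measure E3) (T₂ T₃ : E3 → E3) : Prop :=
  Measurable T₂ ∧ Measurable T₃ ∧ μ.map T₂ = μ ∧ μ.map T₃ = μ ∧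
    ∫⁻ x, coulomb x (T₂ x) (T₃ x) ∂μ = kantorovichValue μ

end Vale.Agent.P121
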