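import Vale.Agent.P121.Push

namespace Vale.Agent.P121

open Metric Set
open scoped RealInnerProductSpace ENNReal

noncomputable def cr (a b c : E3) : ℝ := ‖a - b‖⁻¹ + ‖a - c‖⁻¹ + ‖b - c‖⁻¹

noncomputable def u1 (x : E3) : ℝ := 2 - 50 * ‖x‖ ^ 2

noncomputable def u2 (e y : E3) : ℝ := 1 / 4 - 50 * ‖y - e‖ ^ 2 - 5 / 4 * ⟪e, y - e⟫

lemma semiconvex (w0 w : E3) (h0 : 9 / 10 ≤ ‖w0‖) (h : w ≠ 0) :
    ‖w0‖⁻¹ + ⟪GG w0, w - w0⟫ - ‖w - w0‖ ^ 2 ≤ ‖w‖⁻¹ := by
  have hs0 : 0 < ‖w0‖ := by linarith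
  have hs : 0 < ‖w‖ := norm_pos_iff.2 h
  rw [GG_eq w0 (norm_pos_iff.1 hs0), inner_smul_left]
  have e1 : ‖w‖ ^ 2 = ‖w0‖ ^ 2 + 2 * ⟪w0, w - w0⟫ + ‖w - w0‖ ^ 2 := by
    have := norm_add_sq_real w0 (w - w0)
    rwa [add_sub_cancel] at this
  set s := ‖w‖
  set s0 := ‖w0‖
  set I := ⟪w0, w - w0⟫
  set d := ‖w - w0‖ ^ 2
  have hd : 0 ≤ d := by positivity
  have hI : I = (s ^ 2 - s0 ^ 2 - d) / 2 := by linarith
  have h3 : 1 / 2 ≤ s0 ^ 3 := by
    have : (9 / 10 : ℝ) ^ 3 ≤ s0 ^ 3 := pow_le_pow_left₀ (by norm_num) h0 3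
    linarith [show (1 / 2 : ℝ) ≤ (9 / 10) ^ 3 by norm_num]
  have k1 : s0⁻¹ - (s ^ 2 - s0 ^ 2) / (2 * s0 ^ 3) ≤ s⁻¹ := by
    have : s⁻¹ - (s0⁻¹ - (s ^ 2 - s0 ^ 2) / (2 * s0 ^ 3)) =
        (s - s0) ^ 2 * (s + 2 * s0) / (2 * s * s0 ^ 3) := by
      field_simp
      ring
    have h2 : 0 ≤ (s - s0) ^ 2 * (s + 2 * s0) / (2 * s * s0 ^ 3) := by positivity
    linarith
  have k2 : d / (2 * s0 ^ 3) ≤ d := by
    rw [div_le_iff₀ (by positivity)]
    nlinarith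
  have k3 : (starRingEnd ℝ) (-(s0 ^ 3)⁻¹) * I = -((s ^ 2 - s0 ^ 2) / (2 * s0 ^ 3)) + d / (2 * s0 ^ 3) := by
    rw [hI]
    simp only [conj_trivial]
    field_simp
    ring
  rw [k3]
  linarith

lemma norm_lower (a b c : E3) : ‖c‖ - ‖a‖ - ‖b‖ ≤ ‖a + b + c‖ := by
  have h1 : ‖c‖ ≤ ‖a + b + c‖ + ‖a + b‖ := by
    have := norm_sub_le (a + b + c) (a + b)
    rwa [add_sub_cancel_left] at this
  linarith [norm_add_le a b]

section geom
variable {e x y z : E3}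

lemma geom_xy (he : ‖e‖ = 1) (hx : ‖x‖ < 1 / 1000) (hy : ‖y - e‖ < 1 / 1000) :
    998 / 1000 ≤ ‖x - y‖ ∧ ‖x - y‖ ≤ 1002 / 1000 := by
  have e1 : x - y = x + -(y - e) + -e := by abel
  constructor
  · have := norm_lower x (-(y - e)) (-e)
    rw [← e1, norm_neg, norm_neg] at this
    linarith
  · rw [e1]
    have := norm_add₃_le (a := x) (b := -(y - e)) (c := -e)
    rw [norm_neg, norm_neg] at this
    linarith

lemma geom_xz (he : ‖e‖ = 1) (hx : ‖x‖ < 1 / 1000) (hz : ‖z + e‖ < 1 / 1000) :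
    998 / 1000 ≤ ‖x - z‖ ∧ ‖x - z‖ ≤ 1002 / 1000 :=
  geom_xy (e := -e) (by rw [norm_neg, he]) hx (by rwa [sub_neg_eq_add])

lemma geom_yz (he : ‖e‖ = 1) (hy : ‖y - e‖ < 1 / 1000) (hz : ‖z + e‖ < 1 / 1000) :
    1998 / 1000 ≤ ‖y - z‖ ∧ ‖y - z‖ ≤ 2002 / 1000 := by
  have e1 : y - z = (y - e) + -(z + e) + (2 : ℝ) • e := by rw [two_smul]; abel
  have e2 : ‖(2 : ℝ) • e‖ = 2 := by rw [norm_smul, he]; norm_num
  constructor
  · have := norm_lower (y - e) (-(z + e)) ((2 : ℝ) • e)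
    rw [← e1, norm_neg, e2] at this
    linarith
  · rw [e1]
    have := norm_add₃_le (a := y - e) (b := -(z + e)) (c := (2 : ℝ) • e)
    rw [norm_neg, e2] at this
    linarith

lemma u1_bounds (hx : ‖x‖ < 1 / 1000) : 19999 / 10000 ≤ u1 x ∧ u1 x ≤ 2 := by
  unfold u1
  have := norm_nonneg x
  constructor <;> nlinarith

lemma u2_bounds (he : ‖e‖ = 1) (hy : ‖y - e‖ < 1 / 1000) :
    248 / 1000 ≤ u2 e y ∧ u2 e y ≤ 252 / 1000 := by
  unfold u2
  have h0 := norm_nonneg (y - e)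
  have h1 := abs_real_inner_le_norm e (y - e)
  rw [he, one_mul, abs_le] at h1
  constructor <;> nlinarith

lemma inv_bounds {s a b : ℝ} (ha : 0 < a) (h1 : a ≤ s) (h2 : s ≤ b) : b⁻¹ ≤ s⁻¹ ∧ s⁻¹ ≤ a⁻¹ :=
  ⟨inv_anti₀ (by linarith) h2, inv_anti₀ ha h1⟩

lemma u3_bounds (he : ‖e‖ = 1) (hx : ‖x‖ < 1 / 1000) (hy : ‖y - e‖ < 1 / 1000)
    (hz : ‖z + e‖ < 1 / 1000) :
    0 ≤ cr x y z - u1 x - u2 e y ∧ cr x y z - u1 x - u2 e y ≤ 26 / 100 := by
  obtain ⟨a1, a2⟩ := geom_xy he hx hy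
  obtain ⟨b1, b2⟩ := geom_xz he hx hz
  obtain ⟨c1, c2⟩ := geom_yz he hy hz
  have := inv_bounds (by norm_num) a1 a2
  have := inv_bounds (by norm_num) b1 b2
  have := inv_bounds (by norm_num) c1 c2
  have := u1_bounds hx
  have := u2_bounds he hy
  unfold cr
  norm_num at *
  constructor <;> linarith

lemma key_ineq {x0 y0 : E3} (he : ‖e‖ = 1) (hx0 : ‖x0‖ < 1 / 1000) (hy0 : ‖y0 - e‖ < 1 / 1000)
    (hz : ‖z + e‖ < 1 / 1000) (hx : ‖x‖ < 1 / 1000) (hy : ‖y - e‖ < 1 / 1000)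
    (h1 : E1 x0 y0 z = 0) (h2 : E2 e x0 y0 z = 0) :
    cr x0 y0 z - u1 x0 - u2 e y0 + ‖x - x0‖ ^ 2 ≤ cr x y z - u1 x - u2 e y := by
  have n1 : x - y ≠ 0 := norm_pos_iff.1 (by linarith [(geom_xy he hx hy).1])
  have n2 : x - z ≠ 0 := norm_pos_iff.1 (by linarith [(geom_xz he hx hz).1])
  have n3 : y - z ≠ 0 := norm_pos_iff.1 (by linarith [(geom_yz he hy hz).1])
  have s1 := semiconvex (x0 - y0) (x - y) (by linarith [(geom_xy he hx0 hy0).1]) n1
  have s2 := semiconvex (x0 - z) (x - z) (by linarith [(geom_xz he hx0 hz).1]) n2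
  have s3 := semiconvex (y0 - z) (y - z) (by linarith [(geom_yz he hy0 hz).1]) n3
  obtain ⟨dx, rfl⟩ : ∃ dx, x = x0 + dx := ⟨x - x0, by abel⟩
  obtain ⟨dy, rfl⟩ : ∃ dy, y = y0 + dy := ⟨y - y0, by abel⟩
  have e1 : x0 + dx - (y0 + dy) - (x0 - y0) = dx - dy := by abel
  have e2 : x0 + dx - z - (x0 - z) = dx := by abel
  have e3 : y0 + dy - z - (y0 - z) = dy := by abel
  have e4 : x0 + dx - x0 = dx := by abel
  have e5 : y0 + dy - e = (y0 - e) + dy := by abel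
  rw [e1, inner_sub_right] at s1
  rw [e2] at s2
  rw [e3] at s3
  have k1 := congrArg (fun v => ⟪v, dx⟫) h1
  have k2 := congrArg (fun v => ⟪v, dy⟫) h2
  simp only [E1, E2, inner_add_left, inner_neg_left, real_inner_smul_left, inner_zero_left] at k1 k2
  have q1 := norm_add_sq_real x0 dx
  have q2 := norm_add_sq_real (y0 - e) dy
  have q3 : ‖dx - dy‖ ^ 2 ≤ 2 * ‖dx‖ ^ 2 + 2 * ‖dy‖ ^ 2 := by
    have := norm_sub_le dx dy
    have h0 := norm_nonneg (dx - dy)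
    nlinarith [sq_nonneg (‖dx‖ - ‖dy‖)]
  unfold cr u1 u2
  rw [e4, e5, q1, q2, inner_add_right]
  nlinarith [sq_nonneg ‖dx‖, sq_nonneg ‖dy‖]

end geom

lemma inv_edist_ge {a b : E3} {t : ℝ} (ht : 0 < t) (h : ‖a - b‖ ≤ t) :
    ENNReal.ofReal t⁻¹ ≤ (edist a b)⁻¹ := by
  rw [ENNReal.ofReal_inv_of_pos ht, edist_dist, dist_eq_norm]
  exact ENNReal.inv_le_inv.2 (ENNReal.ofReal_le_ofReal h)

lemma coulomb_gt {a b c : E3} {t1 t2 t3 s : ℝ} (p1 : 0 < t1) (p2 : 0 < t2) (p3 : 0 < t3)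
    (h1 : ‖a - b‖ ≤ t1) (h2 : ‖a - c‖ ≤ t2) (h3 : ‖b - c‖ ≤ t3) (hs : s < t1⁻¹ + t2⁻¹ + t3⁻¹) :
    ENNReal.ofReal s < coulomb a b c := by
  have h : ENNReal.ofReal (t1⁻¹ + t2⁻¹ + t3⁻¹) ≤ coulomb a b c := by
    rw [ENNReal.ofReal_add (by positivity) (by positivity),
      ENNReal.ofReal_add (by positivity) (by positivity)]
    exact add_le_add (add_le_add (inv_edist_ge p1 h1) (inv_edist_ge p2 h2)) (inv_edist_ge p3 h3)
  exact lt_of_lt_of_le ((ENNReal.ofReal_lt_ofReal_iff (by positivity)).2 hs) h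

lemma coulomb_eq {a b c : E3} (h1 : 0 < ‖a - b‖) (h2 : 0 < ‖a - c‖) (h3 : 0 < ‖b - c‖) :
    coulomb a b c = ENNReal.ofReal (cr a b c) := by
  unfold coulomb cr
  rw [ENNReal.ofReal_add (by positivity) (by positivity),
      ENNReal.ofReal_add (by positivity) (by positivity), ENNReal.ofReal_inv_of_pos h1,
      ENNReal.ofReal_inv_of_pos h2, ENNReal.ofReal_inv_of_pos h3]
  simp only [edist_dist, dist_eq_norm]

lemma coulomb_swap12 (a b c : E3) : coulomb a b c = coulomb b a c := by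
  unfold coulomb; rw [edist_comm b a]; ring

lemma coulomb_swap23 (a b c : E3) : coulomb a b c = coulomb a c b := by
  unfold coulomb; rw [edist_comm c b]; ring

noncomputable def ee (k : Fin 3) : E3 := EuclideanSpace.single k 1

lemma ee_norm (k : Fin 3) : ‖ee k‖ = 1 := by simp [ee]

lemma ee_apply (k j : Fin 3) : ee k j = if j = k then 1 else 0 := by simp [ee]

lemma ee_inner {j k : Fin 3} (h : j ≠ k) : ⟪ee j, ee k⟫ = 0 := by
  simp [ee, EuclideanSpace.inner_single_left, h]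

lemma ee_sub (j k : Fin 3) : ‖ee j - ee k‖ ≤ 3 / 2 := by
  by_cases h : j = k
  · rw [h]; simp; norm_num
  · have := norm_sub_sq_real (ee j) (ee k)
    rw [ee_norm, ee_norm, ee_inner h] at this
    nlinarith [norm_nonneg (ee j - ee k)]

lemma ee_add {j k : Fin 3} (h : j ≠ k) : ‖ee j + ee k‖ ≤ 3 / 2 := by
  have := norm_add_sq_real (ee j) (ee k)
  rw [ee_norm, ee_norm, ee_inner h] at this
  nlinarith [norm_nonneg (ee j + ee k)]

lemma coord_le (v : E3) (i : Fin 3) : |v i| ≤ ‖v‖ := by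
  have := PiLp.norm_apply_le v i
  rwa [Real.norm_eq_abs] at this

lemma not_zero_of_plus {p : E3} {k : Fin 3} (h : ‖p - ee k‖ < 1 / 1000) : ¬ ‖p‖ < 1 / 1000 := by
  intro h2
  have a := coord_le (p - ee k) k
  have b := coord_le p k
  rw [PiLp.sub_apply, ee_apply, if_pos rfl, abs_le] at a
  rw [abs_le] at b
  linarith

lemma not_zero_of_minus {p : E3} {k : Fin 3} (h : ‖p + ee k‖ < 1 / 1000) : ¬ ‖p‖ < 1 / 1000 := by
  intro h2
  have a := coord_le (p + ee k) k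
  have b := coord_le p k
  rw [PiLp.add_apply, ee_apply, if_pos rfl, abs_le] at a
  rw [abs_le] at b
  linarith

lemma not_minus_of_plus {p : E3} {k j : Fin 3} (h : ‖p - ee k‖ < 1 / 1000) :
    ¬ ‖p + ee j‖ < 1 / 1000 := by
  intro h2
  have a := coord_le (p - ee k) k
  have b := coord_le (p + ee j) k
  rw [PiLp.sub_apply, ee_apply, if_pos rfl, abs_le] at a
  rw [PiLp.add_apply, ee_apply, abs_le] at b
  split_ifs at b <;> linarith

lemma eq_of_plus {p : E3} {k j : Fin 3} (h : ‖p - ee k‖ < 1 / 1000) (h2 : ‖p - ee j‖ < 1 / 1000) :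
    j = k := by
  by_contra hne
  have a := coord_le (p - ee k) k
  have b := coord_le (p - ee j) k
  rw [PiLp.sub_apply, ee_apply, if_pos rfl, abs_le] at a
  rw [PiLp.sub_apply, ee_apply, if_neg (Ne.symm hne), abs_le] at b
  linarith

lemma eq_of_minus {p : E3} {k j : Fin 3} (h : ‖p + ee k‖ < 1 / 1000) (h2 : ‖p + ee j‖ < 1 / 1000) :
    j = k := by
  by_contra hne
  have a := coord_le (p + ee k) k
  have b := coord_le (p + ee j) k
  rw [PiLp.add_apply, ee_apply, if_pos rfl, abs_le] at a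
  rw [PiLp.add_apply, ee_apply, if_neg (Ne.symm hne), abs_le] at b
  linarith

/-- the three sheets -/
structure Data where
  r : ℝ
  r_pos : 0 < r
  r_le : r ≤ 1 / 1000
  Y : Fin 3 → E3 → E3
  Z : Fin 3 → E3 → E3
  ψ : Fin 3 → E3 → E3
  mY : ∀ k, Measurable (Y k)
  mZ : ∀ k, Measurable (Z k)
  mψ : ∀ k, Measurable (ψ k)
  nY : ∀ k, NiceInv (Y k) r
  nZ : ∀ k, NiceInv (Z k) r
  left : ∀ k x, ‖x‖ < r → ψ k (Z k x) = x
  hY : ∀ k x, ‖x‖ < r → ‖Y k x - ee k‖ < 1 / 1000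
  hZ : ∀ k x, ‖x‖ < r → ‖Z k x + ee k‖ < 1 / 1000
  h1 : ∀ k x, ‖x‖ < r → E1 x (Y k x) (Z k x) = 0
  h2 : ∀ k x, ‖x‖ < r → E2 (ee k) x (Y k x) (Z k x) = 0

theorem exists_data : Nonempty Data := by
  choose r hr Y Z nY nZ h using fun k => exists_sheet (ee k) (ee_norm k)
  let r0 : ℝ := min (1 / 1000) (min (r 0) (min (r 1) (r 2)))
  have hr0 : 0 < r0 := lt_min (by norm_num) (lt_min (hr 0) (lt_min (hr 1) (hr 2)))
  have hle : ∀ k, r0 ≤ r k := by
    intro k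
    fin_cases k
    · exact (min_le_right _ _).trans (min_le_left _ _)
    · exact (min_le_right _ _).trans ((min_le_right _ _).trans (min_le_left _ _))
    · exact (min_le_right _ _).trans ((min_le_right _ _).trans (min_le_right _ _))
  choose Y' mY nY' eY using fun k => ((nY k).mono (hle k) (fun _ _ => rfl)).exists_measurable
  choose Z' mZ nZ' eZ using fun k => ((nZ k).mono (hle k) (fun _ _ => rfl)).exists_measurable
  choose ψ mψ hψ using fun k => (nZ' k).exists_measurable_left_inv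
  have hb : ∀ k x, ‖x‖ < r0 → x ∈ ball (0 : E3) (r k) := fun k x hx =>
    mem_ball_zero_iff.2 (hx.trans_le (hle k))
  refine ⟨⟨r0, hr0, min_le_left _ _, Y', Z', ψ, mY, mZ, mψ, nY', nZ',
    fun k x hx => hψ k x (mem_ball_zero_iff.2 hx), ?_, ?_, ?_, ?_⟩⟩ <;> intro k x hx
  · rw [eY k x (mem_ball_zero_iff.2 hx)]; exact (h k x (hb k x hx)).1
  · rw [eZ k x (mem_ball_zero_iff.2 hx)]; exact (h k x (hb k x hx)).2.1
  · rw [eY k x (mem_ball_zero_iff.2 hx), eZ k x (mem_ball_zero_iff.2 hx)]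
    exact (h k x (hb k x hx)).2.2.1
  · rw [eY k x (mem_ball_zero_iff.2 hx), eZ k x (mem_ball_zero_iff.2 hx)]
    exact (h k x (hb k x hx)).2.2.2

namespace Data

variable (D : Data)

noncomputable def u3 (k : Fin 3) (p : E3) : ℝ :=
  cr (D.ψ k p) (D.Y k (D.ψ k p)) p - u1 (D.ψ k p) - u2 (ee k) (D.Y k (D.ψ k p))

noncomputable def u (p : E3) : ℝ :=
  if ‖p‖ < 1 / 1000 then u1 p else
    ∑ k, ((if ‖p - ee k‖ < 1 / 1000 then u2 (ee k) p else 0) +
      (if ‖p + ee k‖ < 1 / 1000 then D.u3 k p else 0))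

lemma u_zero {p : E3} (h : ‖p‖ < 1 / 1000) : D.u p = u1 p := by
  unfold u; rw [if_pos h]

lemma u_plus {p : E3} {k : Fin 3} (h : ‖p - ee k‖ < 1 / 1000) : D.u p = u2 (ee k) p := by
  unfold u
  rw [if_neg (not_zero_of_plus h), Finset.sum_eq_single k]
  · rw [if_pos h, if_neg (not_minus_of_plus h), add_zero]
  · intro j _ hj
    rw [if_neg (fun h2 => hj (eq_of_plus h h2)), if_neg (not_minus_of_plus h), add_zero]
  · simp

lemma u_minus {p : E3} {k : Fin 3} (h : ‖p + ee k‖ < 1 / 1000) : D.u p = D.u3 k p := by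
  unfold u
  rw [if_neg (not_zero_of_minus h), Finset.sum_eq_single k]
  · rw [if_pos h, if_neg (fun h2 => not_minus_of_plus h2 h), zero_add]
  · intro j _ hj
    rw [if_neg (fun h2 => not_minus_of_plus h2 h), if_neg (fun h2 => hj (eq_of_minus h h2)), add_zero]
  · simp

lemma u_Z (k : Fin 3) {x : E3} (hx : ‖x‖ < D.r) :
    D.u (D.Z k x) = cr x (D.Y k x) (D.Z k x) - u1 x - u2 (ee k) (D.Y k x) := by
  rw [D.u_minus (D.hZ k x hx)]
  unfold u3
  rw [D.left k x hx]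

/-- outer points of the support -/
def Outer (p : E3) : Prop :=
  (∃ k, ‖p - ee k‖ < 1 / 1000) ∨ (∃ k, ‖D.ψ k p‖ < D.r ∧ D.Z k (D.ψ k p) = p)

/-- the support -/
def S : Set E3 := {p | ‖p‖ < D.r ∨ D.Outer p}

lemma outer_bounds {p : E3} (h : D.Outer p) :
    0 ≤ D.u p ∧ D.u p ≤ 26 / 100 ∧ ∃ v : E3, ‖v‖ = 1 ∧ ‖p - v‖ < 1 / 1000 := by
  rcases h with ⟨k, h⟩ | ⟨k, h, h'⟩
  · rw [D.u_plus h]
    have := u2_bounds (ee_norm k) h
    exact ⟨by linarith, by linarith, ee k, ee_norm k, h⟩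
  · have := u3_bounds (ee_norm k) (h.trans_le D.r_le) (D.hY k _ h) (D.hZ k _ h)
    rw [← D.u_Z k h, h'] at this
    refine ⟨this.1, this.2, -ee k, by rw [norm_neg, ee_norm], ?_⟩
    have := D.hZ k _ h
    rwa [h', ← sub_neg_eq_add] at this

lemma S_bounds {p : E3} (h : p ∈ D.S) : 0 ≤ D.u p ∧ D.u p ≤ 2 ∧ ‖p‖ ≤ 1001 / 1000 := by
  rcases h with h | h
  · have h' := h.trans_le D.r_le
    rw [D.u_zero h']
    have := u1_bounds h'
    exact ⟨by linarith, by linarith, by linarith⟩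
  · obtain ⟨a, b, v, hv, hpv⟩ := D.outer_bounds h
    refine ⟨a, by linarith, ?_⟩
    have := norm_add_le (p - v) v
    rw [sub_add_cancel] at this
    linarith

lemma dist_le {p q : E3} (hp : p ∈ D.S) (hq : q ∈ D.S) : ‖p - q‖ ≤ 2002 / 1000 := by
  have := norm_sub_le p q
  linarith [(D.S_bounds hp).2.2, (D.S_bounds hq).2.2]

lemma sheet_case {a b : E3} {k : Fin 3} {x0 : E3} (ha : ‖a‖ < D.r) (hb : ‖b - ee k‖ < 1 / 1000)
    (hx0 : ‖x0‖ < D.r) :
    ENNReal.ofReal (D.u a + D.u b + D.u (D.Z k x0)) ≤ coulomb a b (D.Z k x0) ∧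
      (coulomb a b (D.Z k x0) ≤ ENNReal.ofReal (D.u a + D.u b + D.u (D.Z k x0)) → x0 = a) := by
  have ha' := ha.trans_le D.r_le
  have hz := D.hZ k x0 hx0
  have key := key_ineq (ee_norm k) (hx0.trans_le D.r_le) (D.hY k x0 hx0) hz ha' hb
    (D.h1 k x0 hx0) (D.h2 k x0 hx0)
  have p1 : 0 < ‖a - b‖ := by linarith [(geom_xy (ee_norm k) ha' hb).1]
  have p2 : 0 < ‖a - D.Z k x0‖ := by linarith [(geom_xz (ee_norm k) ha' hz).1]
  have p3 : 0 < ‖b - D.Z k x0‖ := by linarith [(geom_yz (ee_norm k) hb hz).1]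
  rw [coulomb_eq p1 p2 p3, D.u_Z k hx0, D.u_zero ha', D.u_plus hb]
  have h0 := sq_nonneg ‖a - x0‖
  refine ⟨ENNReal.ofReal_le_ofReal (by linarith), fun h => ?_⟩
  have hc : 0 < cr a b (D.Z k x0) := by unfold cr; positivity
  rcases ENNReal.ofReal_le_ofReal_iff'.1 h with h | h
  · have : ‖a - x0‖ ^ 2 = 0 := by linarith
    have := pow_eq_zero_iff (two_ne_zero) |>.1 this
    exact (sub_eq_zero.1 (norm_eq_zero.1 this)).symm
  · linarith

lemma central_case {a b c : E3} (ha : ‖a‖ < D.r) (hb : b ∈ D.S) (hc : c ∈ D.S) :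
    ENNReal.ofReal (D.u a + D.u b + D.u c) ≤ coulomb a b c ∧
      (coulomb a b c ≤ ENNReal.ofReal (D.u a + D.u b + D.u c) → ∃ k, b = D.Z k a ∨ c = D.Z k a) := by
  have haS : a ∈ D.S := Or.inl ha
  have ha' := ha.trans_le D.r_le
  have strict : ENNReal.ofReal (D.u a + D.u b + D.u c) < coulomb a b c →
      ENNReal.ofReal (D.u a + D.u b + D.u c) ≤ coulomb a b c ∧
      (coulomb a b c ≤ ENNReal.ofReal (D.u a + D.u b + D.u c) → ∃ k, b = D.Z k a ∨ c = D.Z k a) :=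
    fun h => ⟨h.le, fun h' => absurd h (not_lt.2 h')⟩
  have ba := D.S_bounds haS
  have bb := D.S_bounds hb
  have bc := D.S_bounds hc
  rcases hb with hb0 | hbo
  · apply strict
    have hb' := hb0.trans_le D.r_le
    refine coulomb_gt (t1 := 2 / 1000) (by norm_num) (by norm_num) (by norm_num)
      (by linarith [norm_sub_le a b]) (D.dist_le haS hc) (D.dist_le (Or.inl hb0) hc) ?_
    norm_num; linarith
  rcases hc with hc0 | hco
  · apply strict
    have hc' := hc0.trans_le D.r_le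
    refine coulomb_gt (t2 := 2 / 1000) (by norm_num) (by norm_num) (by norm_num)
      (D.dist_le haS (Or.inr hbo)) (by linarith [norm_sub_le a c])
      (D.dist_le (Or.inr hbo) (Or.inl hc0)) ?_
    norm_num; linarith
  obtain ⟨_, ub, v, hv, hbv⟩ := D.outer_bounds hbo
  obtain ⟨_, uc, w, hw, hcw⟩ := D.outer_bounds hco
  have near : ∀ v' w' : E3, ‖b - v'‖ < 1 / 1000 → ‖c - w'‖ < 1 / 1000 → ‖v' - w'‖ ≤ 3 / 2 →
      ENNReal.ofReal (D.u a + D.u b + D.u c) < coulomb a b c := by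
    intro v' w' h1 h2 h3
    have e1 : b - c = (b - v') + -(c - w') + (v' - w') := by abel
    have := norm_add₃_le (a := b - v') (b := -(c - w')) (c := v' - w')
    rw [← e1, norm_neg] at this
    refine coulomb_gt (t3 := 1502 / 1000) (by norm_num) (by norm_num) (by norm_num)
      (geom_xy hv ha' hbv).2 (geom_xy hw ha' hcw).2 (by linarith) ?_
    norm_num; linarith
  rcases hbo with ⟨j, hj⟩ | ⟨j, hj, hj'⟩ <;> rcases hco with ⟨k, hk⟩ | ⟨k, hk, hk'⟩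
  · exact strict (near _ _ hj hk (ee_sub j k))
  · have hz := D.hZ k _ hk
    rw [hk', ← sub_neg_eq_add] at hz
    by_cases hjk : j = k
    · subst hjk
      have := D.sheet_case ha hj hk
      rw [hk'] at this
      refine ⟨this.1, fun h => ⟨j, Or.inr ?_⟩⟩
      rw [← this.2 h, hk']
    · exact strict (near _ _ hj hz (by rw [sub_neg_eq_add]; exact ee_add hjk))
  · have hz := D.hZ j _ hj
    rw [hj', ← sub_neg_eq_add] at hz
    by_cases hjk : j = k
    · subst hjk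
      have := D.sheet_case ha hk hj
      rw [hj', ← coulomb_swap23, add_right_comm] at this
      refine ⟨this.1, fun h => ⟨j, Or.inl ?_⟩⟩
      rw [← this.2 h, hj']
    · refine strict (near _ _ hz hk ?_)
      rw [← neg_add', norm_neg]; exact ee_add hjk
  · have hz := D.hZ j _ hj
    rw [hj', ← sub_neg_eq_add] at hz
    have hz' := D.hZ k _ hk
    rw [hk', ← sub_neg_eq_add] at hz'
    refine strict (near _ _ hz hz' ?_)
    rw [neg_sub_neg]; exact ee_sub k j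

lemma dual_le {a b c : E3} (ha : a ∈ D.S) (hb : b ∈ D.S) (hc : c ∈ D.S) :
    ENNReal.ofReal (D.u a + D.u b + D.u c) ≤ coulomb a b c := by
  rcases ha with ha0 | hao
  · exact (D.central_case ha0 hb hc).1
  rcases hb with hb0 | hbo
  · have := (D.central_case hb0 (Or.inr hao) hc).1
    rwa [← coulomb_swap12, add_comm (D.u b)] at this
  rcases hc with hc0 | hco
  · have := (D.central_case hc0 (Or.inr hao) (Or.inr hbo)).1
    rw [coulomb_swap12, ← coulomb_swap23] at this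
    rwa [show D.u a + D.u b + D.u c = D.u c + D.u a + D.u b by ring]
  apply le_of_lt
  refine coulomb_gt (by norm_num) (by norm_num) (by norm_num) (D.dist_le (Or.inr hao) (Or.inr hbo))
    (D.dist_le (Or.inr hao) (Or.inr hco)) (D.dist_le (Or.inr hbo) (Or.inr hco)) ?_
  have := (D.outer_bounds hao).2.1
  have := (D.outer_bounds hbo).2.1
  have := (D.outer_bounds hco).2.1
  norm_num; linarith

lemma sheet_eq (k : Fin 3) {x : E3} (hx : ‖x‖ < D.r) :
    coulomb x (D.Y k x) (D.Z k x) =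
      ENNReal.ofReal (D.u x + D.u (D.Y k x) + D.u (D.Z k x)) := by
  have hx' := hx.trans_le D.r_le
  have hy := D.hY k x hx
  have hz := D.hZ k x hx
  rw [coulomb_eq (by linarith [(geom_xy (ee_norm k) hx' hy).1])
    (by linarith [(geom_xz (ee_norm k) hx' hz).1]) (by linarith [(geom_yz (ee_norm k) hy hz).1]),
    D.u_Z k hx, D.u_zero hx', D.u_plus hy]
  congr 1; ring

lemma Y_mem (k : Fin 3) {x : E3} (hx : ‖x‖ < D.r) : D.Y k x ∈ D.S :=
  Or.inr (Or.inl ⟨k, D.hY k x hx⟩)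

lemma Z_mem (k : Fin 3) {x : E3} (hx : ‖x‖ < D.r) : D.Z k x ∈ D.S :=
  Or.inr (Or.inr ⟨k, by rw [D.left k x hx]; exact ⟨hx, rfl⟩⟩)

end Data

end Vale.Agent.P121
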