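import Vale.Agent.P121.Ineq

namespace Vale.Agent.P121

open Metric Set MeasureTheory Filter
open scoped RealInnerProductSpace ENNReal ContDiff

lemma measurable_coulomb {α : Type} [MeasurableSpace α] {f g h : α → E3} (hf : Measurable f)
    (hg : Measurable g) (hh : Measurable h) : Measurable (fun x => coulomb (f x) (g x) (h x)) := by
  unfold coulomb
  exact ((hf.edist hg).inv.add (hf.edist hh).inv).add (hg.edist hh).inv

lemma lintegral_add3 {α : Type} [MeasurableSpace α] (m : Measure α) {f g : α → ℝ≥0∞}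
    (h : α → ℝ≥0∞) (hf : Measurable f) (hg : Measurable g) :
    ∫⁻ x, (f x + g x + h x) ∂m = ∫⁻ x, f x ∂m + ∫⁻ x, g x ∂m + ∫⁻ x, h x ∂m := by
  rw [lintegral_add_left (f := fun x => f x + g x) (hf.add hg), lintegral_add_left hf]

lemma measurable_u1 : Measurable u1 := by unfold u1; fun_prop

lemma measurable_u2 {f : E3 → E3} (e : E3) (hf : Measurable f) : Measurable (fun x => u2 e (f x)) := by
  have : Continuous (u2 e) := by unfold u2; fun_prop
  exact this.measurable.comp hf

namespace Data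

variable (D : Data)

lemma measurable_u3 (k : Fin 3) : Measurable (D.u3 k) := by
  have h1 := D.mψ k
  have h2 : Measurable (fun p => D.Y k (D.ψ k p)) := (D.mY k).comp h1
  unfold u3 cr
  refine Measurable.sub (Measurable.sub ?_ (measurable_u1.comp h1)) (measurable_u2 _ h2)
  exact ((h1.sub h2).norm.inv.add (h1.sub measurable_id).norm.inv).add
    (h2.sub measurable_id).norm.inv

lemma measurable_u : Measurable D.u := by
  unfold u
  refine Measurable.ite (measurableSet_lt measurable_norm measurable_const) measurable_u1 ?_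
  refine Finset.measurable_sum _ fun k _ => Measurable.add ?_ ?_
  · exact Measurable.ite (measurableSet_lt (measurable_id.sub_const _).norm measurable_const)
      (measurable_u2 _ measurable_id) measurable_const
  · exact Measurable.ite (measurableSet_lt (measurable_id.add_const _).norm measurable_const)
      (D.measurable_u3 k) measurable_const

lemma measurableSet_S : MeasurableSet D.S := by
  have e : D.S = {p : E3 | ‖p‖ < D.r} ∪ ((⋃ k, {p : E3 | ‖p - ee k‖ < 1 / 1000}) ∪
      ⋃ k, ({p : E3 | ‖D.ψ k p‖ < D.r} ∩ {p : E3 | D.Z k (D.ψ k p) = p})) := by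
    ext p; simp [S, Outer]
  rw [e]
  refine (measurableSet_lt measurable_norm measurable_const).union
    (MeasurableSet.union (MeasurableSet.iUnion fun k => ?_) (MeasurableSet.iUnion fun k => ?_))
  · exact measurableSet_lt (measurable_id.sub_const _).norm measurable_const
  · exact (measurableSet_lt (D.mψ k).norm measurable_const).inter
      (measurableSet_eq_fun ((D.mZ k).comp (D.mψ k)) measurable_id)

noncomputable def U (p : E3) : ℝ≥0∞ := ENNReal.ofReal (D.u p)

lemma measurable_U : Measurable D.U := D.measurable_u.ennreal_ofReal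

lemma U_add {a b c : E3} (ha : a ∈ D.S) (hb : b ∈ D.S) (hc : c ∈ D.S) :
    D.U a + D.U b + D.U c = ENNReal.ofReal (D.u a + D.u b + D.u c) := by
  have := (D.S_bounds ha).1
  have := (D.S_bounds hb).1
  have := (D.S_bounds hc).1
  unfold U
  rw [ENNReal.ofReal_add (by positivity) (by positivity),
    ENNReal.ofReal_add (by positivity) (by positivity)]

noncomputable def mu (m : Measure E3) : Measure E3 :=
  (9⁻¹ : ℝ≥0∞) • ∑ k, (m + m.map (D.Y k) + m.map (D.Z k))

noncomputable def plan (m : Measure E3) : Measure (E3 × E3 × E3) :=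
  (9⁻¹ : ℝ≥0∞) • ∑ k, (m.map (fun x => (x, D.Y k x, D.Z k x)) +
    m.map (fun x => (D.Y k x, D.Z k x, x)) + m.map (fun x => (D.Z k x, x, D.Y k x)))

lemma lintegral_mu (m : Measure E3) {f : E3 → ℝ≥0∞} (hf : Measurable f) :
    ∫⁻ x, f x ∂(D.mu m) = 9⁻¹ * ∑ k, ∫⁻ x, (f x + f (D.Y k x) + f (D.Z k x)) ∂m := by
  unfold mu
  rw [lintegral_smul_measure, lintegral_finset_sum_measure, smul_eq_mul]
  congr 1
  apply Finset.sum_congr rfl
  intro k _
  rw [lintegral_add_measure, lintegral_add_measure, lintegral_map hf (D.mY k),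
    lintegral_map hf (D.mZ k)]
  exact (lintegral_add3 m _ hf (hf.comp (D.mY k))).symm

lemma lintegral_plan (m : Measure E3) {f : E3 × E3 × E3 → ℝ≥0∞} (hf : Measurable f) :
    ∫⁻ x, f x ∂(D.plan m) = 9⁻¹ * ∑ k, ∫⁻ x, (f (x, D.Y k x, D.Z k x) + f (D.Y k x, D.Z k x, x) +
      f (D.Z k x, x, D.Y k x)) ∂m := by
  unfold plan
  rw [lintegral_smul_measure, lintegral_finset_sum_measure, smul_eq_mul]
  congr 1
  apply Finset.sum_congr rfl
  intro k _
  have m1 : Measurable (fun x => (x, D.Y k x, D.Z k x)) :=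
    measurable_id.prodMk ((D.mY k).prodMk (D.mZ k))
  have m2 : Measurable (fun x => (D.Y k x, D.Z k x, x)) :=
    (D.mY k).prodMk ((D.mZ k).prodMk measurable_id)
  have m3 : Measurable (fun x => (D.Z k x, x, D.Y k x)) :=
    (D.mZ k).prodMk (measurable_id.prodMk (D.mY k))
  rw [lintegral_add_measure, lintegral_add_measure, lintegral_map hf m1,
    lintegral_map hf m2, lintegral_map hf m3]
  exact (lintegral_add3 m _ (hf.comp m1) (hf.comp m2)).symm

lemma nine : (9⁻¹ : ℝ≥0∞) * 9 = 1 := ENNReal.inv_mul_cancel (by norm_num) (by norm_num)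

lemma mu_prob (m : Measure E3) [IsProbabilityMeasure m] : IsProbabilityMeasure (D.mu m) := by
  constructor
  rw [← lintegral_one, D.lintegral_mu m measurable_const]
  simp only [lintegral_const, measure_univ, mul_one, Finset.sum_const, Finset.card_univ,
    Fintype.card_fin, nsmul_eq_mul]
  exact Eq.trans (by norm_num) nine

lemma plan_coupling (m : Measure E3) [IsProbabilityMeasure m] : IsCoupling (D.mu m) (D.plan m) := by
  have key : ∀ g : E3 × E3 × E3 → E3, Measurable g →
      (∀ (f : E3 → ℝ≥0∞) a b c, f (g (a, b, c)) + f (g (b, c, a)) + f (g (c, a, b)) =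
        f a + f b + f c) → (D.plan m).map g = D.mu m := by
    intro g hg h
    ext A hA
    have hi : Measurable (A.indicator (1 : E3 → ℝ≥0∞)) := measurable_one.indicator hA
    rw [← lintegral_indicator_one hA, ← lintegral_indicator_one hA, lintegral_map hi hg,
      D.lintegral_plan m (f := fun a => A.indicator 1 (g a)) (hi.comp hg), D.lintegral_mu m hi]
    simp only [h]
  refine ⟨?_, key _ measurable_fst (fun f a b c => rfl),
    key _ measurable_snd.fst (fun f a b c => by simp only; ring),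
    key _ measurable_snd.snd (fun f a b c => by simp only; ring)⟩
  constructor
  rw [← lintegral_one, D.lintegral_plan m measurable_const]
  simp only [lintegral_const, measure_univ, mul_one, Finset.sum_const, Finset.card_univ,
    Fintype.card_fin, nsmul_eq_mul]
  exact Eq.trans (by norm_num) nine

lemma mu_apply (m : Measure E3) {A : Set E3} (hA : MeasurableSet A) :
    D.mu m A = 9⁻¹ * ∑ k, (m A + m (D.Y k ⁻¹' A) + m (D.Z k ⁻¹' A)) := by
  unfold mu
  rw [Measure.smul_apply, Measure.finset_sum_apply, smul_eq_mul]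
  congr 1
  apply Finset.sum_congr rfl
  intro k _
  rw [Measure.add_apply, Measure.add_apply, Measure.map_apply (D.mY k) hA,
    Measure.map_apply (D.mZ k) hA]

lemma null_of (m : Measure E3) (hm : ∀ᵐ x ∂m, ‖x‖ < D.r) {A : Set E3}
    (h : ∀ x, ‖x‖ < D.r → x ∉ A) : m A = 0 := by
  rw [measure_eq_zero_iff_ae_notMem]
  exact hm.mono h

lemma ae_S (m : Measure E3) (hm : ∀ᵐ x ∂m, ‖x‖ < D.r) : ∀ᵐ x ∂(D.mu m), x ∈ D.S := by
  have : D.mu m D.Sᶜ = 0 := by
    rw [D.mu_apply m D.measurableSet_S.compl, Finset.sum_eq_zero, mul_zero]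
    intro k _
    rw [D.null_of m hm (A := D.Sᶜ) (fun x hx h => h (Or.inl hx)),
      D.null_of m hm (A := D.Y k ⁻¹' D.Sᶜ) (fun x hx h => h (D.Y_mem k hx)),
      D.null_of m hm (A := D.Z k ⁻¹' D.Sᶜ) (fun x hx h => h (D.Z_mem k hx))]
    simp
  exact this

lemma plan_cost (m : Measure E3) (hm : ∀ᵐ x ∂m, ‖x‖ < D.r) :
    ∫⁻ p, coulomb p.1 p.2.1 p.2.2 ∂(D.plan m) = 3 * ∫⁻ x, D.U x ∂(D.mu m) := by
  rw [D.lintegral_plan m (measurable_coulomb measurable_fst measurable_snd.fst measurable_snd.snd),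
    D.lintegral_mu m D.measurable_U, mul_left_comm, Finset.mul_sum (a := 3)]
  congr 1
  apply Finset.sum_congr rfl
  intro k _
  rw [← lintegral_const_mul' _ _ (by norm_num)]
  apply lintegral_congr_ae
  filter_upwards [hm] with x hx
  rw [D.U_add (Or.inl hx) (D.Y_mem k hx) (D.Z_mem k hx), ← D.sheet_eq k hx,
    coulomb_swap23 (D.Y k x), ← coulomb_swap12 x, coulomb_swap12 (D.Z k x),
    coulomb_swap23 x (D.Z k x)]
  ring

lemma U_int (m : Measure E3) [IsProbabilityMeasure m] (hm : ∀ᵐ x ∂m, ‖x‖ < D.r) :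
    3 * ∫⁻ x, D.U x ∂(D.mu m) < ⊤ := by
  haveI := D.mu_prob m
  have : ∫⁻ x, D.U x ∂(D.mu m) ≤ ∫⁻ _, ENNReal.ofReal 2 ∂(D.mu m) := by
    apply lintegral_mono_ae
    filter_upwards [D.ae_S m hm] with x hx
    exact ENNReal.ofReal_le_ofReal (D.S_bounds hx).2.1
  rw [lintegral_const, measure_univ, mul_one] at this
  exact ENNReal.mul_lt_top (by norm_num) (this.trans_lt ENNReal.ofReal_lt_top)

lemma value_le (m : Measure E3) [IsProbabilityMeasure m] (hm : ∀ᵐ x ∂m, ‖x‖ < D.r) :
    kantorovichValue (D.mu m) ≤ 3 * ∫⁻ x, D.U x ∂(D.mu m) := by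
  rw [← D.plan_cost m hm]
  exact iInf₂_le (D.plan m) (D.plan_coupling m)

theorem no_monge (m : Measure E3) [IsProbabilityMeasure m] (hm : ∀ᵐ x ∂m, ‖x‖ < D.r)
    (T₂ T₃ : E3 → E3) : ¬ IsOptimalMongePair (D.mu m) T₂ T₃ := by
  rintro ⟨m2, m3, e2, e3, hopt⟩
  set μ := D.mu m with hμ
  have hS : ∀ᵐ x ∂μ, x ∈ D.S := D.ae_S m hm
  have hS2 : ∀ᵐ x ∂μ, T₂ x ∈ D.S := ae_of_ae_map m2.aemeasurable (by rwa [e2])
  have hS3 : ∀ᵐ x ∂μ, T₃ x ∈ D.S := ae_of_ae_map m3.aemeasurable (by rwa [e3])
  have hU := D.measurable_U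
  have hsum : ∫⁻ x, (D.U x + D.U (T₂ x) + D.U (T₃ x)) ∂μ = 3 * ∫⁻ x, D.U x ∂μ := by
    rw [lintegral_add3 μ (g := fun x => D.U (T₂ x)) _ hU (hU.comp m2),
      ← lintegral_map hU m2, ← lintegral_map hU m3, e2, e3]
    ring
  have hle : (fun x => D.U x + D.U (T₂ x) + D.U (T₃ x)) ≤ᵐ[μ]
      fun x => coulomb x (T₂ x) (T₃ x) := by
    filter_upwards [hS, hS2, hS3] with x h1 h2 h3
    rw [D.U_add h1 h2 h3]
    exact D.dual_le h1 h2 h3
  have heq := ae_eq_of_ae_le_of_lintegral_le hle (by rw [hsum]; exact (D.U_int m hm).ne)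
    (measurable_coulomb measurable_id m2 m3).aemeasurable
    (by rw [hsum, hopt]; exact D.value_le m hm)
  let A : Fin 3 → Set E3 := fun k => {x | ‖x‖ < D.r} ∩ ({x | T₂ x = D.Z k x} ∪ {x | T₃ x = D.Z k x})
  have hA : ∀ k, MeasurableSet (A k) := fun k =>
    (measurableSet_lt measurable_norm measurable_const).inter
      ((measurableSet_eq_fun m2 (D.mZ k)).union (measurableSet_eq_fun m3 (D.mZ k)))
  have hcover : ∀ᵐ x ∂μ, ‖x‖ < D.r → x ∈ ⋃ k, A k := by
    filter_upwards [hS2, hS3, heq] with x h2 h3 h hx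
    rw [D.U_add (Or.inl hx) h2 h3] at h
    obtain ⟨k, hk⟩ := (D.central_case hx h2 h3).2 h.ge
    exact mem_iUnion.2 ⟨k, hx, hk⟩
  have hlow : ∀ B : Set E3, MeasurableSet B → 9⁻¹ * (3 * m B) ≤ μ B := by
    intro B hB
    rw [hμ, D.mu_apply m hB]
    apply mul_le_mul_right
    have : ∑ _k : Fin 3, m B ≤ ∑ k, (m B + m (D.Y k ⁻¹' B) + m (D.Z k ⁻¹' B)) :=
      Finset.sum_le_sum fun k _ => le_self_add.trans le_self_add
    simpa using this
  have hnull : ∀ k, m (A k) = 0 := by
    intro k
    let B : Set E3 := {p | ‖p + ee k‖ < 1 / 1000} ∩ D.ψ k ⁻¹' (A k)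
    have hB : MeasurableSet B :=
      (measurableSet_lt (measurable_id.add_const _).norm measurable_const).inter (D.mψ k (hA k))
    have h1 : μ B ≤ 9⁻¹ * m (A k) := by
      rw [hμ, D.mu_apply m hB, Finset.sum_eq_single k]
      · rw [D.null_of m hm (A := B) (fun x hx h => not_zero_of_minus h.1 (hx.trans_le D.r_le)),
          D.null_of m hm (A := D.Y k ⁻¹' B) (fun x hx h => not_minus_of_plus (D.hY k x hx) h.1),
          zero_add, zero_add]
        apply mul_le_mul_right
        apply measure_mono_ae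
        filter_upwards [hm] with x hx h
        have := h.2
        rwa [mem_preimage, D.left k x hx] at this
      · intro j _ hj
        rw [D.null_of m hm (A := B) (fun x hx h => not_zero_of_minus h.1 (hx.trans_le D.r_le)),
          D.null_of m hm (A := D.Y j ⁻¹' B) (fun x hx h => not_minus_of_plus (D.hY j x hx) h.1),
          D.null_of m hm (A := D.Z j ⁻¹' B) (fun x hx h => hj (eq_of_minus h.1 (D.hZ j x hx)))]
        simp
      · simp
    have h2 : μ (A k) ≤ μ B + μ B := by
      have hsub : A k ⊆ T₂ ⁻¹' B ∪ T₃ ⁻¹' B := by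
        intro x hx
        have hZB : D.Z k x ∈ B := ⟨D.hZ k x hx.1, by rw [mem_preimage, D.left k x hx.1]; exact hx⟩
        rcases hx.2 with h | h
        · left; rw [mem_preimage, show T₂ x = D.Z k x from h]; exact hZB
        · right; rw [mem_preimage, show T₃ x = D.Z k x from h]; exact hZB
      refine (measure_mono hsub).trans ((measure_union_le _ _).trans (le_of_eq ?_))
      rw [← Measure.map_apply m2 hB, ← Measure.map_apply m3 hB, e2, e3]
    have h3 : 9⁻¹ * (3 * m (A k)) ≤ 9⁻¹ * (2 * m (A k)) := by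
      refine (hlow _ (hA k)).trans (h2.trans ?_)
      rw [two_mul, mul_add]
      exact add_le_add h1 h1
    have h4 : 3 * m (A k) ≤ 2 * m (A k) :=
      (ENNReal.mul_le_mul_iff_right (by norm_num) (by norm_num)).1 h3
    have h5 : 2 * m (A k) + m (A k) ≤ 2 * m (A k) + 0 := by
      rw [add_zero]; refine le_trans (le_of_eq ?_) h4; ring
    have h6 : 2 * m (A k) ≠ ⊤ := ENNReal.mul_ne_top (by norm_num) (measure_ne_top _ _)
    exact le_zero_iff.1 ((ENNReal.add_le_add_iff_left h6).1 h5)
  have hac : m ≪ μ := by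
    refine Measure.AbsolutelyContinuous.mk fun B hB h0 => ?_
    have := hlow B hB
    rw [h0, le_zero_iff] at this
    simpa using this
  have h7 : ∀ᵐ x ∂m, x ∉ ⋃ k, A k := by
    rw [← measure_eq_zero_iff_ae_notMem]
    exact measure_iUnion_null hnull
  have h8 : ∀ᵐ _ ∂m, False := by
    filter_upwards [hac.ae_le hcover, hm, h7] with x a b c
    exact c (a b)
  exact (ae_neBot.2 (IsProbabilityMeasure.ne_zero m)).ne (eventually_false_iff_eq_bot.1 h8)

end Data

theorem main : ∃ ρ : E3 → ℝ, ContDiff ℝ ∞ ρ ∧ HasCompactSupport ρ ∧ (∀ x, 0 ≤ ρ x) ∧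
    IsProbabilityMeasure (volume.withDensity (fun x => ENNReal.ofReal (ρ x))) ∧
    kantorovichValue (volume.withDensity (fun x => ENNReal.ofReal (ρ x))) < ⊤ ∧
    ∀ T₂ T₃, ¬ IsOptimalMongePair (volume.withDensity (fun x => ENNReal.ofReal (ρ x))) T₂ T₃ := by
  obtain ⟨D⟩ := exists_data
  have hr := D.r_pos
  let b : ContDiffBump (0 : E3) := ⟨D.r / 4, D.r / 2, by positivity, by linarith⟩
  let ρ0 : E3 → ℝ := b.normed volume
  have c0 : ContDiff ℝ ∞ ρ0 := b.contDiff_normed
  have s0 : HasCompactSupport ρ0 := b.hasCompactSupport_normed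
  have t0 : tsupport ρ0 ⊆ ball 0 D.r := by
    rw [b.tsupport_normed_eq]
    exact closedBall_subset_ball (by simp only [b]; linarith)
  have n0 : ∀ x, 0 ≤ ρ0 x := b.nonneg_normed
  let m : Measure E3 := volume.withDensity (fun x => ENNReal.ofReal (ρ0 x))
  haveI : IsProbabilityMeasure m := by
    constructor
    rw [withDensity_apply _ MeasurableSet.univ, Measure.restrict_univ,
      ← ofReal_integral_eq_lintegral_ofReal b.integrable_normed (Eventually.of_forall n0),
      b.integral_normed, ENNReal.ofReal_one]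
  have hm : ∀ᵐ x ∂m, ‖x‖ < D.r := by
    rw [ae_withDensity_iff c0.continuous.measurable.ennreal_ofReal]
    refine Eventually.of_forall fun x hx => ?_
    have : ρ0 x ≠ 0 := fun h => hx (by rw [h, ENNReal.ofReal_zero])
    exact mem_ball_zero_iff.1 (t0 (subset_tsupport _ this))
  choose ρY cY sY nY eY using fun k => push_smooth (D.Y k) D.r (D.nY k) (D.mY k) ρ0 c0 s0 t0 n0
  choose ρZ cZ sZ nZ eZ using fun k => push_smooth (D.Z k) D.r (D.nZ k) (D.mZ k) ρ0 c0 s0 t0 n0
  let ρ : E3 → ℝ := fun x => 9⁻¹ * ∑ k, (ρ0 x + ρY k x + ρZ k x)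
  have hmu : volume.withDensity (fun x => ENNReal.ofReal (ρ x)) = D.mu m := by
    ext A hA
    rw [D.mu_apply m hA, withDensity_apply _ hA]
    have e : ∀ x, ENNReal.ofReal (ρ x) = 9⁻¹ * ∑ k, (ENNReal.ofReal (ρ0 x) +
        ENNReal.ofReal (ρY k x) + ENNReal.ofReal (ρZ k x)) := by
      intro x
      simp only [ρ]
      rw [ENNReal.ofReal_mul (by norm_num), ENNReal.ofReal_sum_of_nonneg
        (fun k _ => add_nonneg (add_nonneg (n0 x) (nY k x)) (nZ k x)),
        ENNReal.ofReal_inv_of_pos (by norm_num)]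
      congr 1
      · simp
      · apply Finset.sum_congr rfl
        intro k _
        rw [ENNReal.ofReal_add (add_nonneg (n0 x) (nY k x)) (nZ k x),
          ENNReal.ofReal_add (n0 x) (nY k x)]
    have q0 := c0.continuous.measurable.ennreal_ofReal
    have qY := fun k => (cY k).continuous.measurable.ennreal_ofReal
    have qZ := fun k => (cZ k).continuous.measurable.ennreal_ofReal
    simp only [e]
    rw [lintegral_const_mul' _ _ (by norm_num),
      lintegral_finset_sum (f := fun k x => ENNReal.ofReal (ρ0 x) +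
        ENNReal.ofReal (ρY k x) + ENNReal.ofReal (ρZ k x)) _
        (fun k _ => (q0.add (qY k)).add (qZ k))]
    congr 1
    apply Finset.sum_congr rfl
    intro k _
    rw [lintegral_add3 _ _ q0 (qY k),
      ← Measure.map_apply (D.mY k) hA, ← Measure.map_apply (D.mZ k) hA, eY, eZ,
      withDensity_apply _ hA, withDensity_apply _ hA, withDensity_apply _ hA]
  refine ⟨ρ, ?_, ?_, ?_, ?_, ?_, ?_⟩
  · exact contDiff_const.mul (ContDiff.sum fun k _ => (c0.add (cY k)).add (cZ k))
  · have : HasCompactSupport (fun x => ∑ k, (ρ0 x + ρY k x + ρZ k x)) := by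
      simp only [Fin.sum_univ_three]
      exact ((((s0.add (sY 0)).add (sZ 0)).add ((s0.add (sY 1)).add (sZ 1))).add
        ((s0.add (sY 2)).add (sZ 2)))
    exact this.mul_left
  · intro x
    exact mul_nonneg (by norm_num)
      (Finset.sum_nonneg fun k _ => add_nonneg (add_nonneg (n0 x) (nY k x)) (nZ k x))
  · rw [hmu]; exact D.mu_prob m
  · rw [hmu]; exact (D.value_le m hm).trans_lt (D.U_int m hm)
  · rw [hmu]; exact D.no_monge m hm

end Vale.Agent.P121
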