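import Vale.Agent.P121.Sheet

namespace Vale.Agent.P121

open Metric Filter Topology MeasureTheory Set
open scoped ContDiff ENNReal

lemma contDiff_det3 : ContDiff ℝ ∞ (fun A : E3 →L[ℝ] E3 => A.det) := by
  let b := (EuclideanSpace.basisFun (Fin 3) ℝ).toBasis
  have h : ∀ i j, ContDiff ℝ ∞ (fun A : E3 →L[ℝ] E3 =>
      LinearMap.toMatrix b b (A : E3 →ₗ[ℝ] E3) i j) := by
    intro i j
    have e : (fun A : E3 →L[ℝ] E3 => LinearMap.toMatrix b b (A : E3 →ₗ[ℝ] E3) i j) =
        fun A : E3 →L[ℝ] E3 => (EuclideanSpace.proj i : E3 →L[ℝ] ℝ) (A (b j)) := by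
      funext A
      rw [LinearMap.toMatrix_apply]
      simp [b]
    rw [e]
    exact (EuclideanSpace.proj i : E3 →L[ℝ] ℝ).contDiff.comp
      ((ContinuousLinearMap.apply ℝ E3 (b j)).contDiff)
  have e : (fun A : E3 →L[ℝ] E3 => A.det) = fun A : E3 →L[ℝ] E3 =>
      (LinearMap.toMatrix b b (A : E3 →ₗ[ℝ] E3)).det := by
    funext A
    rw [LinearMap.det_toMatrix]
  rw [e]
  simp only [Matrix.det_fin_three]
  exact ((((((h 0 0).mul (h 1 1)).mul (h 2 2)).sub (((h 0 0).mul (h 1 2)).mul (h 2 1))).sub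
    (((h 0 1).mul (h 1 0)).mul (h 2 2))).add (((h 0 1).mul (h 1 2)).mul (h 2 0))).add
    (((h 0 2).mul (h 1 0)).mul (h 2 1)) |>.sub (((h 0 2).mul (h 1 1)).mul (h 2 0))

lemma push_smooth (f : E3 → E3) (r : ℝ) (hf : NiceInv f r) (hm : Measurable f) (ρ : E3 → ℝ)
    (hρ : ContDiff ℝ ∞ ρ) (hρc : HasCompactSupport ρ) (hρs : tsupport ρ ⊆ ball 0 r)
    (h0 : ∀ x, 0 ≤ ρ x) :
    ∃ ρ' : E3 → ℝ, ContDiff ℝ ∞ ρ' ∧ HasCompactSupport ρ' ∧ (∀ x, 0 ≤ ρ' x) ∧
      (volume.withDensity (fun x => ENNReal.ofReal (ρ x))).map f =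
        volume.withDensity (fun x => ENNReal.ofReal (ρ' x)) := by
  classical
  obtain ⟨hc, ψ, W0, hW0, h1, h2⟩ := hf
  have hψc : ContinuousOn ψ W0 := fun y hy => (h2 y hy).1.continuousAt.continuousWithinAt
  set W := W0 ∩ ψ ⁻¹' (ball 0 r) with hWdef
  have hW : IsOpen W := hψc.isOpen_inter_preimage hW0 isOpen_ball
  have hright : ∀ y ∈ W, f (ψ y) = y := fun y hy => (h2 y hy.1).2.2 hy.2
  let ρ' : E3 → ℝ := W.indicator (fun y => |(fderiv ℝ ψ y).det| * ρ (ψ y))
  have hK : IsCompact (f '' tsupport ρ) := hρc.isCompact.image_of_continuousOn (hc.mono hρs)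
  have hzero : ∀ y, y ∉ f '' tsupport ρ → ρ' y = 0 := by
    intro y hy
    by_cases hyW : y ∈ W
    · simp only [ρ', indicator_of_mem hyW]
      have : ρ (ψ y) = 0 := by
        by_contra hne
        exact hy ⟨ψ y, subset_tsupport ρ hne, hright y hyW⟩
      rw [this, mul_zero]
    · simp only [ρ', indicator_of_notMem hyW]
  refine ⟨ρ', ?_, HasCompactSupport.intro hK hzero, ?_, ?_⟩
  · rw [contDiff_iff_contDiffAt]
    intro y
    by_cases hyW : y ∈ W
    · have k1 : ContDiffAt ℝ ∞ (fun y => |(fderiv ℝ ψ y).det| * ρ (ψ y)) y := by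
        obtain ⟨q1, q2, _⟩ := h2 y hyW.1
        have q3 : ContDiffAt ℝ ∞ (fun y => (fderiv ℝ ψ y).det) y :=
          contDiff_det3.contDiffAt.comp y (q1.fderiv_right (m := ∞) (by simp))
        exact (q3.abs q2).mul (hρ.contDiffAt.comp y (q1.of_le (by simp)))
      refine k1.congr_of_eventuallyEq ?_
      filter_upwards [hW.mem_nhds hyW] with z hz
      simp only [ρ', indicator_of_mem hz]
    · have hy : y ∉ f '' tsupport ρ := by
        rintro ⟨x, hx, rfl⟩
        apply hyW
        have := h1 x (hρs hx)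
        refine ⟨this.1, ?_⟩
        rw [mem_preimage, this.2]
        exact hρs hx
      refine (contDiffAt_const (c := (0 : ℝ))).congr_of_eventuallyEq ?_
      filter_upwards [hK.isClosed.isOpen_compl.mem_nhds hy] with z hz
      exact hzero z hz
  · intro y
    exact indicator_nonneg (fun z _ => mul_nonneg (abs_nonneg _) (h0 _)) y
  · ext A hA
    rw [Measure.map_apply hm hA, withDensity_apply _ (hm hA), withDensity_apply _ hA,
      ← lintegral_indicator (hm hA), ← lintegral_indicator hA]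
    have himg : ψ '' W = ball 0 r := by
      ext x
      constructor
      · rintro ⟨y, hy, rfl⟩; exact hy.2
      · intro hx
        have := h1 x hx
        refine ⟨f x, ⟨this.1, ?_⟩, this.2⟩
        rw [mem_preimage, this.2]; exact hx
    have hinj : InjOn ψ W := fun y hy z hz h => by rw [← hright y hy, ← hright z hz, h]
    have hder : ∀ y ∈ W, HasFDerivWithinAt ψ (fderiv ℝ ψ y) W y := fun y hy =>
      ((h2 y hy.1).1.differentiableAt (by simp)).hasFDerivAt.hasFDerivWithinAt
    have key := lintegral_image_eq_lintegral_abs_det_fderiv_mul volume hW.measurableSet hder hinj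
      ((f ⁻¹' A).indicator (fun x => ENNReal.ofReal (ρ x)))
    rw [himg, ← lintegral_indicator measurableSet_ball, ← lintegral_indicator hW.measurableSet] at key
    have e1 : (f ⁻¹' A).indicator (fun x => ENNReal.ofReal (ρ x)) =
        (ball (0 : E3) r).indicator ((f ⁻¹' A).indicator (fun x => ENNReal.ofReal (ρ x))) := by
      funext x
      by_cases hx : x ∈ ball (0 : E3) r
      · rw [indicator_of_mem hx]
      · rw [indicator_of_notMem hx]
        have : ρ x = 0 := by
          by_contra hne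
          exact hx (hρs (subset_tsupport ρ hne))
        by_cases hx2 : x ∈ f ⁻¹' A
        · rw [indicator_of_mem hx2, this, ENNReal.ofReal_zero]
        · rw [indicator_of_notMem hx2]
    rw [e1, key]
    congr 1
    funext y
    by_cases hyW : y ∈ W
    · rw [indicator_of_mem hyW]
      by_cases hyA : y ∈ A
      · have : ψ y ∈ f ⁻¹' A := by rw [mem_preimage, hright y hyW]; exact hyA
        rw [indicator_of_mem this, indicator_of_mem hyA]
        simp only [ρ', indicator_of_mem hyW]
        rw [ENNReal.ofReal_mul (abs_nonneg _)]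
      · have : ψ y ∉ f ⁻¹' A := by rw [mem_preimage, hright y hyW]; exact hyA
        rw [indicator_of_notMem this, indicator_of_notMem hyA, mul_zero]
    · rw [indicator_of_notMem hyW]
      by_cases hyA : y ∈ A
      · rw [indicator_of_mem hyA]
        simp only [ρ', indicator_of_notMem hyW, ENNReal.ofReal_zero]
      · rw [indicator_of_notMem hyA]

/-- a measurable left inverse -/
lemma NiceInv.exists_measurable_left_inv {f : E3 → E3} {r : ℝ} (hf : NiceInv f r) :
    ∃ ψ : E3 → E3, Measurable ψ ∧ ∀ x ∈ ball (0 : E3) r, ψ (f x) = x := by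
  classical
  obtain ⟨_, ψ, W0, hW0, h1, h2⟩ := hf
  have hψc : ContinuousOn ψ W0 := fun y hy => (h2 y hy).1.continuousAt.continuousWithinAt
  refine ⟨W0.piecewise ψ (fun _ => 0),
    hψc.measurable_piecewise continuousOn_const hW0.measurableSet, fun x hx => ?_⟩
  rw [piecewise_eq_of_mem _ _ _ (h1 x hx).1, (h1 x hx).2]

lemma NiceInv.exists_measurable {f : E3 → E3} {r : ℝ} (hf : NiceInv f r) :
    ∃ g : E3 → E3, Measurable g ∧ NiceInv g r ∧ ∀ x ∈ ball (0 : E3) r, g x = f x := by
  classical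
  have h : ∀ x ∈ ball (0 : E3) r, (ball (0 : E3) r).piecewise f (fun _ => 0) x = f x :=
    fun x hx => piecewise_eq_of_mem _ _ _ hx
  exact ⟨(ball (0 : E3) r).piecewise f (fun _ => 0),
    hf.1.measurable_piecewise continuousOn_const measurableSet_ball, hf.mono le_rfl h, h⟩

end Vale.Agent.P121
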