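import Vale.Agent.P121.Defs

namespace Vale.Agent.P121

open Metric Filter Topology
open scoped RealInnerProductSpace ContDiff

/-- gradient of `1/|z|` -/
noncomputable def GG (w : E3) : E3 := (-((‖w‖ ^ 2) ^ (-(3 / 2) : ℝ))) • w

lemma rpow_sq (s : ℝ) (hs : 0 < s) (k : ℕ) : (s ^ 2) ^ (-((k : ℝ) / 2)) = (s ^ k)⁻¹ := by
  rw [← Real.rpow_natCast s 2, ← Real.rpow_mul hs.le, ← Real.rpow_natCast s k,
    ← Real.rpow_neg hs.le]
  congr 1
  push_cast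
  ring

lemma GG_eq (w : E3) (hw : w ≠ 0) : GG w = (-(‖w‖ ^ 3)⁻¹) • w := by
  unfold GG
  have := rpow_sq ‖w‖ (norm_pos_iff.2 hw) 3
  push_cast at this
  rw [this]

lemma GG_contDiffAt (w : E3) (hw : w ≠ 0) : ContDiffAt ℝ ω GG w := by
  unfold GG
  have h1 : ContDiffAt ℝ ω (fun w : E3 => ‖w‖ ^ 2) w := contDiffAt_id.norm_sq ℝ
  have h2 : ‖w‖ ^ 2 ≠ 0 := pow_ne_zero 2 (norm_pos_iff.2 hw).ne'
  exact (h1.rpow_const_of_ne h2).neg.smul contDiffAt_id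

lemma GG_hasFDerivAt (w : E3) (hw : w ≠ 0) : ∃ D : E3 →L[ℝ] E3, HasFDerivAt GG D w ∧
    ∀ h, D h = (-(‖w‖ ^ 3)⁻¹) • h + (3 * (‖w‖ ^ 5)⁻¹ * ⟪w, h⟫) • w := by
  have h2 : ‖w‖ ^ 2 ≠ 0 := pow_ne_zero 2 (norm_pos_iff.2 hw).ne'
  have h1 := ((hasStrictFDerivAt_norm_sq w).hasFDerivAt.rpow_const (p := -(3 / 2))
    (Or.inl h2)).neg.smul (hasFDerivAt_id w)
  refine ⟨_, h1, fun h => ?_⟩
  have e3 := rpow_sq ‖w‖ (norm_pos_iff.2 hw) 3
  have e5 := rpow_sq ‖w‖ (norm_pos_iff.2 hw) 5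
  push_cast at e3 e5
  have e : (-(3 / 2) - 1 : ℝ) = -(5 / 2) := by norm_num
  simp only [e, e3, e5, Pi.neg_apply, id, ContinuousLinearMap.add_apply,
    ContinuousLinearMap.smul_apply, ContinuousLinearMap.id_apply,
    ContinuousLinearMap.smulRight_apply, ContinuousLinearMap.neg_apply, innerSL_apply_apply,
    smul_eq_mul, nsmul_eq_mul]
  congr 2
  push_cast
  ring

/-- `f` has a smooth inverse on `ball 0 r`. -/
def NiceInv (f : E3 → E3) (r : ℝ) : Prop :=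
  ContinuousOn f (ball 0 r) ∧ ∃ (ψ : E3 → E3) (W : Set E3), IsOpen W ∧
    (∀ x ∈ ball (0 : E3) r, f x ∈ W ∧ ψ (f x) = x) ∧
    ∀ y ∈ W, ContDiffAt ℝ ω ψ y ∧ (fderiv ℝ ψ y).det ≠ 0 ∧ (ψ y ∈ ball (0 : E3) r → f (ψ y) = y)

lemma NiceInv.mono {f g : E3 → E3} {r r' : ℝ} (h : NiceInv f r) (hr : r' ≤ r)
    (hfg : ∀ x ∈ ball (0 : E3) r', g x = f x) : NiceInv g r' := by
  obtain ⟨hc, ψ, W, hW, h1, h2⟩ := h
  refine ⟨(hc.mono (ball_subset_ball hr)).congr hfg, ψ, W, hW, ?_, ?_⟩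
  · intro x hx
    rw [hfg x hx]
    exact h1 x (ball_subset_ball hr hx)
  · intro y hy
    refine ⟨(h2 y hy).1, (h2 y hy).2.1, fun hb => ?_⟩
    rw [hfg _ hb]
    exact (h2 y hy).2.2 (ball_subset_ball hr hb)

lemma local_inv {V : Type} [NormedAddCommGroup V] [NormedSpace ℝ V] [FiniteDimensional ℝ V]
    (f : V → V) (a : V) (B : V →L[ℝ] V) (hf : ContDiffAt ℝ ω f a) (hB : HasFDerivAt f B a)
    (hinj : ∀ v, B v = 0 → v = 0) :
    ∃ ψ : V → V, ContDiffAt ℝ ω ψ (f a) ∧ ψ (f a) = a ∧ (∀ᶠ x in 𝓝 a, ψ (f x) = x) ∧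
      (∀ᶠ y in 𝓝 (f a), f (ψ y) = y) ∧ (fderiv ℝ ψ (f a)).det ≠ 0 := by
  haveI : CompleteSpace V := FiniteDimensional.complete ℝ V
  have hi : Function.Injective (B : V →ₗ[ℝ] V) := by
    rw [← LinearMap.ker_eq_bot, LinearMap.ker_eq_bot']
    exact hinj
  let L : V ≃L[ℝ] V := (LinearEquiv.ofInjectiveEndo (B : V →ₗ[ℝ] V) hi).toContinuousLinearEquiv
  have hL : (L : V →L[ℝ] V) = B := by ext v; rfl
  have hB' : HasFDerivAt f (L : V →L[ℝ] V) a := hL ▸ hB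
  have hn : (ω : WithTop ℕ∞) ≠ 0 := by simp
  have hs := hf.hasStrictFDerivAt' hB' hn
  refine ⟨hf.localInverse hB' hn, hf.to_localInverse hB' hn, hf.localInverse_apply_image hB' hn,
    hs.eventually_left_inverse, hs.eventually_right_inverse, ?_⟩
  have hd : fderiv ℝ (hf.localInverse hB' hn) (f a) = (L.symm : V →L[ℝ] V) :=
    hs.to_localInverse.hasFDerivAt.fderiv
  rw [hd]
  exact (LinearEquiv.isUnit_det' L.symm.toLinearEquiv).ne_zero

lemma niceInv_of (f : E3 → E3) (B : E3 →L[ℝ] E3) (hf : ContDiffAt ℝ ω f 0)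
    (hB : HasFDerivAt f B 0) (hinj : ∀ v, B v = 0 → v = 0) : ∃ r > 0, NiceInv f r := by
  obtain ⟨ψ, h1, _, h3, h4, h5⟩ := local_inv f 0 B hf hB hinj
  have hn : (ω : WithTop ℕ∞) ≠ ∞ := by simp
  have hc : ContinuousAt (fun y => (fderiv ℝ ψ y).det) (f 0) :=
    ContinuousLinearMap.continuous_det.continuousAt.comp
      (h1.fderiv_right (m := 0) (by simp)).continuousAt
  have h6 : ∀ᶠ y in 𝓝 (f 0), (fderiv ℝ ψ y).det ≠ 0 := hc.eventually_ne h5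
  obtain ⟨W, hW1, hW2, hW3⟩ := _root_.eventually_nhds_iff.1 ((h1.eventually hn).and (h6.and h4))
  have h7 : ∀ᶠ x in 𝓝 (0 : E3), f x ∈ W := hf.continuousAt.eventually (hW2.mem_nhds hW3)
  obtain ⟨r, hr, hb⟩ := Metric.eventually_nhds_iff_ball.1 ((hf.eventually hn).and (h7.and h3))
  refine ⟨r, hr, fun x hx => (hb x hx).1.continuousAt.continuousWithinAt, ψ, W, hW2,
    fun x hx => (hb x hx).2, fun y hy => ⟨(hW1 y hy).1, (hW1 y hy).2.1, fun _ => (hW1 y hy).2.2⟩⟩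

noncomputable def E1 (x y z : E3) : E3 := GG (x - y) + GG (x - z) + (100 : ℝ) • x

noncomputable def E2 (e x y z : E3) : E3 :=
  -GG (x - y) + GG (y - z) + (100 : ℝ) • (y - e) + (5 / 4 : ℝ) • e

lemma kernel_lemma (e a b c : E3) (he : ‖e‖ = 1)
    (h1 : (-(a - b) + (3 * ⟪e, a - b⟫) • e) + (-(a - c) + (3 * ⟪e, a - c⟫) • e) + (100 : ℝ) • a = 0)
    (h2 : -(-(a - b) + (3 * ⟪e, a - b⟫) • e) +
      (1 / 8 : ℝ) • (-(b - c) + (3 * ⟪e, b - c⟫) • e) + (100 : ℝ) • b = 0)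
    (h : a = 0 ∨ b = 0 ∨ c = 0) : a = 0 ∧ b = 0 ∧ c = 0 := by
  have hee : ⟪e, e⟫ = 1 := by rw [real_inner_self_eq_norm_sq, he]; norm_num
  have k1 := congrArg (fun v => ⟪e, v⟫) h1
  have k2 := congrArg (fun v => ⟪e, v⟫) h2
  simp only [inner_add_right, inner_neg_right, inner_sub_right, inner_smul_right, hee,
    inner_zero_right] at k1 k2
  have hs : ⟪e, a⟫ = 0 ∧ ⟪e, b⟫ = 0 ∧ ⟪e, c⟫ = 0 := by
    rcases h with h | h | h
    · have : ⟪e, a⟫ = 0 := by rw [h, inner_zero_right]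
      refine ⟨this, ?_, ?_⟩ <;> linarith
    · have : ⟪e, b⟫ = 0 := by rw [h, inner_zero_right]
      refine ⟨?_, this, ?_⟩ <;> linarith
    · have : ⟪e, c⟫ = 0 := by rw [h, inner_zero_right]
      refine ⟨?_, ?_, this⟩ <;> linarith
  simp only [inner_sub_right, hs.1, hs.2.1, hs.2.2, sub_self, mul_zero, zero_smul, add_zero] at h1 h2
  have key : ∀ i, a i = 0 ∧ b i = 0 ∧ c i = 0 := by
    intro i
    have j1 := congrArg (fun v : E3 => v i) h1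
    have j2 := congrArg (fun v : E3 => v i) h2
    simp only [PiLp.add_apply, PiLp.neg_apply, PiLp.sub_apply, PiLp.smul_apply, smul_eq_mul,
      PiLp.zero_apply] at j1 j2
    rcases h with h | h | h
    · have : a i = 0 := by rw [h]; rfl
      refine ⟨this, ?_, ?_⟩ <;> linarith
    · have : b i = 0 := by rw [h]; rfl
      refine ⟨?_, this, ?_⟩ <;> linarith
    · have : c i = 0 := by rw [h]; rfl
      refine ⟨?_, ?_, this⟩ <;> linarith
  refine ⟨?_, ?_, ?_⟩ <;> ext i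
  · exact (key i).1
  · exact (key i).2.1
  · exact (key i).2.2

noncomputable def Phi (e : E3) (p : E3 × E3 × E3) : E3 × E3 × E3 :=
  (p.1, E1 p.1 p.2.1 p.2.2, E2 e p.1 p.2.1 p.2.2)

lemma Phi_facts (e : E3) (he : ‖e‖ = 1) : Phi e (0, e, -e) = 0 ∧ ContDiffAt ℝ ω (Phi e) (0, e, -e) ∧
    ∃ D : (E3 × E3 × E3) →L[ℝ] (E3 × E3 × E3), HasFDerivAt (Phi e) D (0, e, -e) ∧
      ∀ t, (D t).1 = t.1 ∧ ((D t).2 = 0 → (t.1 = 0 ∨ t.2.1 = 0 ∨ t.2.2 = 0) → t = 0) := by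
  have he0 : e ≠ 0 := by intro h; rw [h] at he; simp at he
  have a1 : (0 : E3) - e = -e := zero_sub e
  have a2 : (0 : E3) - -e = e := by simp
  have a3 : e - -e = (2 : ℝ) • e := by rw [two_smul]; simp
  have n1 : (0 : E3) - e ≠ 0 := by rw [a1]; exact neg_ne_zero.2 he0
  have n2 : (0 : E3) - -e ≠ 0 := by rw [a2]; exact he0
  have n3 : e - -e ≠ 0 := by rw [a3]; exact smul_ne_zero (by norm_num) he0
  have m1 : ‖(0 : E3) - e‖ = 1 := by rw [a1, norm_neg, he]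
  have m2 : ‖(0 : E3) - -e‖ = 1 := by rw [a2, he]
  have m3 : ‖e - -e‖ = 2 := by rw [a3, norm_smul, he]; norm_num
  let p0 : E3 × E3 × E3 := (0, e, -e)
  refine ⟨?_, ?_, ?_⟩
  · unfold Phi E1 E2
    simp only
    rw [GG_eq _ n1, GG_eq _ n2, GG_eq _ n3, m1, m2, m3, a1, a2, a3]
    refine Prod.ext rfl (Prod.ext ?_ ?_)
    · simp
    · simp only [Prod.snd_zero]
      ext i
      simp
      ring
  · have c1 : ContDiffAt ℝ ω (fun p : E3 × E3 × E3 => GG (p.1 - p.2.1)) p0 :=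
      (GG_contDiffAt _ n1).comp p0 (f := fun p : E3 × E3 × E3 => p.1 - p.2.1) (by fun_prop)
    have c2 : ContDiffAt ℝ ω (fun p : E3 × E3 × E3 => GG (p.1 - p.2.2)) p0 :=
      (GG_contDiffAt _ n2).comp p0 (f := fun p : E3 × E3 × E3 => p.1 - p.2.2) (by fun_prop)
    have c3 : ContDiffAt ℝ ω (fun p : E3 × E3 × E3 => GG (p.2.1 - p.2.2)) p0 :=
      (GG_contDiffAt _ n3).comp p0 (f := fun p : E3 × E3 × E3 => p.2.1 - p.2.2) (by fun_prop)
    unfold Phi E1 E2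
    refine ContDiffAt.prodMk (by fun_prop) (ContDiffAt.prodMk ?_ ?_)
    · exact (c1.add c2).add (by fun_prop)
    · exact ((c1.neg.add c3).add (by fun_prop)).add (by fun_prop)
  · obtain ⟨D1, hD1, f1⟩ := GG_hasFDerivAt _ n1
    obtain ⟨D2, hD2, f2⟩ := GG_hasFDerivAt _ n2
    obtain ⟨D3, hD3, f3⟩ := GG_hasFDerivAt _ n3
    have p1 : HasFDerivAt (fun p : E3 × E3 × E3 => p.1) (ContinuousLinearMap.fst ℝ _ _) p0 :=
      hasFDerivAt_fst
    have p2 : HasFDerivAt (fun p : E3 × E3 × E3 => p.2.1)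
        ((ContinuousLinearMap.fst ℝ E3 E3).comp (ContinuousLinearMap.snd ℝ _ _)) p0 :=
      ((ContinuousLinearMap.fst ℝ E3 E3).comp (ContinuousLinearMap.snd ℝ E3 (E3 × E3))).hasFDerivAt
    have p3 : HasFDerivAt (fun p : E3 × E3 × E3 => p.2.2)
        ((ContinuousLinearMap.snd ℝ E3 E3).comp (ContinuousLinearMap.snd ℝ _ _)) p0 :=
      ((ContinuousLinearMap.snd ℝ E3 E3).comp (ContinuousLinearMap.snd ℝ E3 (E3 × E3))).hasFDerivAt
    have c1 := HasFDerivAt.comp p0 (f := fun p : E3 × E3 × E3 => p.1 - p.2.1) hD1 (p1.sub p2)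
    have c2 := HasFDerivAt.comp p0 (f := fun p : E3 × E3 × E3 => p.1 - p.2.2) hD2 (p1.sub p3)
    have c3 := HasFDerivAt.comp p0 (f := fun p : E3 × E3 × E3 => p.2.1 - p.2.2) hD3 (p2.sub p3)
    have d1 := (c1.add c2).add (p1.const_smul (100 : ℝ))
    have d2 := ((c1.neg.add c3).add ((p2.sub_const e).const_smul (100 : ℝ))).add_const
      ((5 / 4 : ℝ) • e)
    refine ⟨_, p1.prodMk (d1.prodMk d2), ?_⟩
    rintro ⟨a, b, c⟩
    refine ⟨rfl, fun h hor => ?_⟩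
    have g1 : D1 (a - b) + D2 (a - c) + (100 : ℝ) • a = 0 := congrArg Prod.fst h
    have g2 : -D1 (a - b) + D3 (b - c) + (100 : ℝ) • b = 0 := congrArg Prod.snd h
    have r1 : ∀ h, D1 h = -h + (3 * ⟪e, h⟫) • e := by
      intro h; rw [f1, m1, a1]; simp
    have r2 : ∀ h, D2 h = -h + (3 * ⟪e, h⟫) • e := by
      intro h; rw [f2, m2, a2]; simp
    have r3 : ∀ h, D3 h = (1 / 8 : ℝ) • (-h + (3 * ⟪e, h⟫) • e) := by
      intro h; rw [f3, m3, a3, inner_smul_left]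
      ext i
      simp
      ring
    rw [r1, r2] at g1
    rw [r1, r3] at g2
    obtain ⟨ha, hb, hc⟩ := kernel_lemma e a b c he g1 g2 hor
    rw [ha, hb, hc]; rfl

theorem exists_sheet (e : E3) (he : ‖e‖ = 1) : ∃ r > 0, ∃ Y Z : E3 → E3,
    NiceInv Y r ∧ NiceInv Z r ∧ ∀ x ∈ ball (0 : E3) r, ‖Y x - e‖ < 1 / 1000 ∧
      ‖Z x + e‖ < 1 / 1000 ∧ E1 x (Y x) (Z x) = 0 ∧ E2 e x (Y x) (Z x) = 0 := by
  obtain ⟨h0, hc, D, hD, hk⟩ := Phi_facts e he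
  have hinj : ∀ t, D t = 0 → t = 0 := by
    intro t ht
    have := hk t
    rw [ht] at this
    exact this.2 rfl (Or.inl this.1.symm)
  obtain ⟨ψ, h1, h2, _, h4, _⟩ := local_inv (Phi e) (0, e, -e) D hc hD hinj
  rw [h0] at h1 h2 h4
  let ι : E3 →L[ℝ] (E3 × E3 × E3) := ContinuousLinearMap.inl ℝ E3 (E3 × E3)
  have hι0 : ι 0 = 0 := map_zero ι
  let γ : E3 → E3 × E3 × E3 := fun x => ψ (ι x)
  have hγc : ContDiffAt ℝ ω γ 0 := by
    have : ContDiffAt ℝ ω ψ (ι 0) := by rwa [hι0]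
    exact this.comp 0 ι.contDiff.contDiffAt
  have hγ0 : γ 0 = (0, e, -e) := by simp only [γ, hι0, h2]
  have hev : ∀ᶠ x in 𝓝 (0 : E3), Phi e (γ x) = ι x := by
    have : Tendsto ι (𝓝 0) (𝓝 0) := by simpa using ι.continuous.tendsto 0
    exact this.eventually h4
  have hγd : HasFDerivAt γ (fderiv ℝ γ 0) 0 := (hγc.differentiableAt (by simp)).hasFDerivAt
  have hcomp : D.comp (fderiv ℝ γ 0) = ι := by
    have k1 : HasFDerivAt (fun x => Phi e (γ x)) (D.comp (fderiv ℝ γ 0)) 0 := by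
      have : HasFDerivAt (Phi e) D (γ 0) := by rwa [hγ0]
      exact this.comp 0 hγd
    have k2 : HasFDerivAt (fun x => Phi e (γ x)) ι 0 :=
      ι.hasFDerivAt.congr_of_eventuallyEq hev
    exact k1.unique k2
  have hker : ∀ a, ((fderiv ℝ γ 0 a).2.1 = 0 ∨ (fderiv ℝ γ 0 a).2.2 = 0) → a = 0 := by
    intro a ha
    have k1 : D (fderiv ℝ γ 0 a) = (a, 0) := by
      have := congrArg (fun L => L a) hcomp
      exact this
    have k2 := hk (fderiv ℝ γ 0 a)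
    rw [k1] at k2
    have k3 := k2.2 rfl (Or.inr ha)
    have k4 := k2.1
    rw [k3] at k4
    exact k4
  let P2 : (E3 × E3 × E3) →L[ℝ] E3 :=
    (ContinuousLinearMap.fst ℝ E3 E3).comp (ContinuousLinearMap.snd ℝ E3 (E3 × E3))
  let P3 : (E3 × E3 × E3) →L[ℝ] E3 :=
    (ContinuousLinearMap.snd ℝ E3 E3).comp (ContinuousLinearMap.snd ℝ E3 (E3 × E3))
  have hYc : ContDiffAt ℝ ω (fun x => P2 (γ x)) 0 := P2.contDiff.contDiffAt.comp 0 hγc
  have hZc : ContDiffAt ℝ ω (fun x => P3 (γ x)) 0 := P3.contDiff.contDiffAt.comp 0 hγc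
  obtain ⟨r1, hr1, hY⟩ := niceInv_of (fun x => P2 (γ x)) (P2.comp (fderiv ℝ γ 0)) hYc
    (P2.hasFDerivAt.comp 0 hγd) (fun v hv => hker v (Or.inl hv))
  obtain ⟨r2, hr2, hZ⟩ := niceInv_of (fun x => P3 (γ x)) (P3.comp (fderiv ℝ γ 0)) hZc
    (P3.hasFDerivAt.comp 0 hγd) (fun v hv => hker v (Or.inr hv))
  have hYe : ∀ᶠ x in 𝓝 (0 : E3), ‖P2 (γ x) - e‖ < 1 / 1000 := by
    have : ContinuousAt (fun x => ‖P2 (γ x) - e‖) 0 := (hYc.continuousAt.sub continuousAt_const).norm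
    apply this.eventually_lt continuousAt_const
    rw [hγ0]; simp [P2]
  have hZe : ∀ᶠ x in 𝓝 (0 : E3), ‖P3 (γ x) + e‖ < 1 / 1000 := by
    have : ContinuousAt (fun x => ‖P3 (γ x) + e‖) 0 := (hZc.continuousAt.add continuousAt_const).norm
    apply this.eventually_lt continuousAt_const
    rw [hγ0]; simp [P3]
  obtain ⟨r3, hr3, hb⟩ := Metric.eventually_nhds_iff_ball.1 (hYe.and (hZe.and hev))
  refine ⟨min r1 (min r2 r3), by positivity, fun x => P2 (γ x), fun x => P3 (γ x),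
    hY.mono (min_le_left _ _) (fun _ _ => rfl),
    hZ.mono ((min_le_right _ _).trans (min_le_left _ _)) (fun _ _ => rfl), ?_⟩
  intro x hx
  obtain ⟨b1, b2, b3⟩ := hb x (ball_subset_ball ((min_le_right _ _).trans (min_le_right _ _)) hx)
  have q1 : (γ x).1 = x := congrArg Prod.fst b3
  have q2 : E1 (γ x).1 (γ x).2.1 (γ x).2.2 = 0 := congrArg (fun t => t.2.1) b3
  have q3 : E2 e (γ x).1 (γ x).2.1 (γ x).2.2 = 0 := congrArg (fun t => t.2.2) b3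
  rw [q1] at q2 q3
  exact ⟨b1, b2, q2, q3⟩

end Vale.Agent.P121
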